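import Vale.Agent.P088.H43.B.BdKey

/-!
# P088, stage 2: the boundary step (rows BD, BDE)
-/

open MeasureTheory Set Filter
open scoped ContDiff Matrix Topology

noncomputable section

namespace Vale.Agent.P088.LR.B.H43

open Vale.Agent.P088.LR Vale.Agent.P088.LR.B Vale.Agent.P088.H639

variable {n : ℕ} {ρ : V n → ℝ}

/-- a symmetric form with null vector `ν` is controlled by its values on unit vectors orthogonal
to `ν` -/
lemma polar {β : Fin n → Fin n → ℝ} (hs : ∀ i j, β i j = β j i) {ν : V n}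
    (hν : ∑ i, ν i ^ 2 = 1) (hβ : ∀ i, ∑ j, β i j * ν j = 0) {κ : ℝ} (hκ : 0 ≤ κ)
    (hτ : ∀ τ : V n, ∑ i, τ i ^ 2 = 1 → ∑ i, ν i * τ i = 0 →
      |∑ i, ∑ j, β i j * (τ i * τ j)| ≤ κ) : ∀ i j, |β i j| ≤ κ := by
  set Q : V n → V n → ℝ := fun u v => ∑ i, ∑ j, β i j * (u i * v j) with hQ
  have add1 : ∀ (a c : ℝ) (u v w : V n), Q (fun i => a * u i + c * v i) w = a * Q u w + c * Q v w := by
    intro a c u v w
    simp only [hQ, Finset.mul_sum, ← Finset.sum_add_distrib]
    exact Finset.sum_congr rfl fun i _ => Finset.sum_congr rfl fun j _ => by ring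
  have sym : ∀ u v : V n, Q u v = Q v u := by
    intro u v
    simp only [hQ]
    rw [Finset.sum_comm]
    refine Finset.sum_congr rfl fun i _ => Finset.sum_congr rfl fun j _ => ?_
    rw [hs j i]; ring
  have add2 : ∀ (a c : ℝ) (u v w : V n), Q w (fun i => a * u i + c * v i) = a * Q w u + c * Q w v := by
    intro a c u v w
    rw [sym, add1, sym u w, sym v w]
  have nul : ∀ u : V n, Q u ν = 0 := fun u => by
    simp only [hQ]
    refine Finset.sum_eq_zero fun i _ => ?_
    have h : ∑ j, β i j * (u i * ν j) = u i * ∑ j, β i j * ν j := by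
      rw [Finset.mul_sum]
      exact Finset.sum_congr rfl fun j _ => by ring
    rw [h, hβ i, mul_zero]
  have main : ∀ u : V n, |Q u u| ≤ κ * ∑ i, u i ^ 2 := by
    intro u
    set c : ℝ := ∑ i, ν i * u i with hc
    set u' : V n := fun i => 1 * u i + (-c) * ν i with hu'
    set L : ℝ := ∑ i, u' i ^ 2 with hL
    have o : ∑ i, ν i * u' i = 0 := by
      have h : ∑ i, ν i * u' i = (∑ i, ν i * u i) - c * ∑ i, ν i ^ 2 := by
        rw [Finset.mul_sum, ← Finset.sum_sub_distrib]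
        exact Finset.sum_congr rfl fun i _ => by simp only [hu']; ring
      rw [h, hν, ← hc]; ring
    have hLe : L = ∑ i, u i ^ 2 - c ^ 2 := by
      have h : L = ∑ i, u i ^ 2 - 2 * c * (∑ i, ν i * u i) + c ^ 2 * ∑ i, ν i ^ 2 := by
        have e : ∀ i, u' i ^ 2 = u i ^ 2 - 2 * c * (ν i * u i) + c ^ 2 * ν i ^ 2 := fun i => by
          simp only [hu']; ring
        rw [hL]
        simp only [e, Finset.sum_add_distrib, Finset.sum_sub_distrib, ← Finset.mul_sum]
      rw [h, hν, ← hc]; ring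
    have hL0 : 0 ≤ L := Finset.sum_nonneg fun i _ => sq_nonneg _
    have hQu : Q u' u' = Q u u := by
      rw [hu', add1, add2, add2, sym ν u, nul, sym ν ν, nul]
      ring
    have hle : L ≤ ∑ i, u i ^ 2 := by rw [hLe]; linarith [sq_nonneg c]
    rw [← hQu]
    refine le_trans ?_ (mul_le_mul_of_nonneg_left hle hκ)
    rcases hL0.eq_or_lt with h0 | h0
    · have hz : ∀ i, u' i = 0 := fun i => by
        have h := (Finset.sum_eq_zero_iff_of_nonneg fun i _ => sq_nonneg (u' i)).1 h0.symm i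
          (Finset.mem_univ i)
        exact pow_eq_zero_iff two_ne_zero |>.1 h
      have : Q u' u' = 0 := by simp [hQ, hz]
      rw [this, abs_zero]
      positivity
    · set s : ℝ := √L with hs'
      have hs0 : 0 < s := Real.sqrt_pos.2 h0
      have hss : s ^ 2 = L := Real.sq_sqrt hL0
      have h1 := hτ (fun i => s⁻¹ * u' i + 0 * ν i) (by
        have h : ∑ i, (s⁻¹ * u' i + 0 * ν i) ^ 2 = s⁻¹ ^ 2 * L := by
          rw [hL, Finset.mul_sum]
          exact Finset.sum_congr rfl fun i _ => by ring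
        rw [h, ← hss]
        field_simp) (by
        have h : ∑ i, ν i * (s⁻¹ * u' i + 0 * ν i) = s⁻¹ * ∑ i, ν i * u' i := by
          rw [Finset.mul_sum]
          exact Finset.sum_congr rfl fun i _ => by ring
        rw [h, o, mul_zero])
      have h2 : ∑ i, ∑ j, β i j * ((s⁻¹ * u' i + 0 * ν i) * (s⁻¹ * u' j + 0 * ν j)) =
          s⁻¹ ^ 2 * Q u' u' := by
        have h3 : ∑ i, ∑ j, β i j * ((s⁻¹ * u' i + 0 * ν i) * (s⁻¹ * u' j + 0 * ν j)) =
          Q (fun i => s⁻¹ * u' i + 0 * ν i) (fun i => s⁻¹ * u' i + 0 * ν i) := rfl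
        rw [h3, add1, add2]
        ring
      rw [h2, abs_mul, abs_of_pos (by positivity), inv_pow, hss, inv_mul_le_iff₀ h0] at h1
      linarith
  intro i j
  set u : V n := Pi.single i 1 with hu
  set v : V n := Pi.single j 1 with hv
  have hu2 : ∑ a, u a ^ 2 = 1 := by simp [hu, Pi.single_apply]
  have hv2 : ∑ a, v a ^ 2 = 1 := by simp [hv, Pi.single_apply]
  have huv : Q u v = β i j := by simp [hQ, hu, hv, Pi.single_apply]
  have h1 := main (fun a => 1 * u a + 1 * v a)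
  have h2 := main (fun a => 1 * u a + (-1) * v a)
  have e1 : ∑ a, (1 * u a + 1 * v a) ^ 2 + ∑ a, (1 * u a + (-1) * v a) ^ 2 = 4 := by
    have h : ∑ a, (1 * u a + 1 * v a) ^ 2 + ∑ a, (1 * u a + (-1) * v a) ^ 2 =
        2 * ∑ a, u a ^ 2 + 2 * ∑ a, v a ^ 2 := by
      rw [Finset.mul_sum, Finset.mul_sum, ← Finset.sum_add_distrib, ← Finset.sum_add_distrib]
      exact Finset.sum_congr rfl fun a _ => by ring
    rw [h, hu2, hv2]; norm_num
  have e2 : 4 * β i j = Q (fun a => 1 * u a + 1 * v a) (fun a => 1 * u a + 1 * v a) -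
      Q (fun a => 1 * u a + (-1) * v a) (fun a => 1 * u a + (-1) * v a) := by
    rw [add1, add2, add2, add1, add2, add2, sym v u, huv]
    ring
  have h3 : |4 * β i j| ≤ κ * 4 := by
    rw [e2, ← e1, mul_add]
    exact (abs_sub _ _).trans (add_le_add h1 h2)
  rw [abs_mul, abs_of_pos (by norm_num : (0 : ℝ) < 4)] at h3
  linarith

lemma mem_closure (hρ : Dom ρ) {p : V n} (hp : ρ p = 0) : p ∈ closure (Om ρ) := by
  by_contra h
  have h1 : (closure (Om ρ))ᶜ ∈ 𝓝 p := isClosed_closure.isOpen_compl.mem_nhds h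
  have h2 : IsLocalMax ρ p := by
    filter_upwards [h1] with x hx
    rw [hp]
    by_contra h3
    exact hx (subset_closure (not_le.1 h3))
  exact hρ.nz p hp h2.fderiv_eq_zero

lemma bd_core (hn : 3 ≤ n) (hρ : Dom ρ) {t : MF n}
    (ha : ∀ x ∈ Om ρ, ∀ i j, |t x i j - dl i j| ≤ 1 / (16 * n ^ 3))
    {m : ℕ} {b : Fin n → Fin n → V n → ℝ}
    (hkey : ∀ {p : V n}, ρ p = 0 → ∀ {ν τ : V n}, ∑ i, ν i ^ 2 = 1 → ∑ i, τ i ^ 2 = 1 →
      ∑ i, ν i * τ i = 0 → (∃ c > 0, ∀ i, pd i ρ p = c * ν i) → (∀ i, ∑ j, b i j p * ν j = 0) →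
      |∑ i, ∑ j, b i j p * (τ i * τ j)| ≤ 4 * n * (ρ p ^ m * ∑ i, ∑ j, b i j p ^ 2))
    (hb : ∀ i j, ContDiff ℝ ∞ (b i j))
    (hs : ∀ i j x, b i j x = b j i x) (hh : ∀ x i j, t x i j - dl i j = ρ x ^ m * b i j x)
    (hbν : ∀ x, ρ x = 0 → ∀ i, ∑ j, b i j x * pd j ρ x = 0) :
    ∀ x, ρ x = 0 → ∀ i j, b i j x = 0 := by
  intro p hp
  have hn0 : (0 : ℝ) < n := by
    have : 0 < n := by omega
    exact_mod_cast this
  set g : V n := fun i => pd i ρ p with hg
  set S0 : ℝ := ∑ i, g i ^ 2 with hS0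
  have hS0n : 0 ≤ S0 := Finset.sum_nonneg fun i _ => sq_nonneg _
  have hS0p : 0 < S0 := by
    refine lt_of_le_of_ne hS0n fun h0 => hρ.nz p hp ?_
    have hz : ∀ i, g i = 0 := fun i =>
      pow_eq_zero_iff two_ne_zero |>.1 ((Finset.sum_eq_zero_iff_of_nonneg fun i _ =>
        sq_nonneg (g i)).1 h0.symm i (Finset.mem_univ i))
    refine ContinuousLinearMap.coe_injective (LinearMap.pi_ext' fun i => LinearMap.ext_ring ?_)
    have h1 : (fderiv ℝ ρ p) (Pi.single i 1) = 0 := hz i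
    simpa using h1
  set c : ℝ := √S0 with hc'
  have hc0 : 0 < c := Real.sqrt_pos.2 hS0p
  have hcc : c ^ 2 = S0 := Real.sq_sqrt hS0n
  set ν : V n := fun i => g i / c with hνd
  have hν1 : ∑ i, ν i ^ 2 = 1 := by
    have h : ∑ i, ν i ^ 2 = S0 / c ^ 2 := by
      rw [hS0, Finset.sum_div]
      exact Finset.sum_congr rfl fun i _ => by simp only [hνd]; ring
    rw [h, hcc, div_self hS0p.ne']
  have hνc : ∃ c > 0, ∀ i, pd i ρ p = c * ν i :=
    ⟨c, hc0, fun i => by simp only [hνd, hg]; field_simp⟩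
  have hbν' : ∀ i, ∑ j, b i j p * ν j = 0 := fun i => by
    have h : ∑ j, b i j p * ν j = (∑ j, b i j p * pd j ρ p) / c := by
      rw [Finset.sum_div]
      exact Finset.sum_congr rfl fun j _ => by simp only [hνd, hg]; ring
    rw [h, hbν p hp i, zero_div]
  set S : ℝ := ∑ i, ∑ j, b i j p ^ 2 with hS
  have hS00 : 0 ≤ S := Finset.sum_nonneg fun i _ => Finset.sum_nonneg fun j _ => sq_nonneg _
  have hρm : 0 ≤ ρ p ^ m := by rw [hp]; positivity
  have hκ : 0 ≤ 4 * n * (ρ p ^ m * S) := by positivity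
  have hpol := polar (fun i j => hs i j p) hν1 hbν' hκ fun τ h2 h3 =>
    hkey hp hν1 h2 h3 hνc hbν'
  rcases Nat.eq_zero_or_pos m with hm | hm
  · subst hm
    have hcl : ∀ i j, |b i j p| ≤ 1 / (16 * n ^ 3) := by
      intro i j
      have h1 : IsClosed {x : V n | |b i j x| ≤ 1 / (16 * n ^ 3)} :=
        isClosed_le (hb i j).continuous.abs continuous_const
      refine closure_minimal ?_ h1 (mem_closure hρ hp)
      intro x hx
      have h2 := ha x hx i j
      rwa [hh x i j, pow_zero, one_mul] at h2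
    simp only [pow_zero, one_mul] at hpol
    have h1 : S ≤ ∑ i : Fin n, ∑ j : Fin n, 4 * n * S * (1 / (16 * n ^ 3)) := by
      rw [hS]
      refine Finset.sum_le_sum fun i _ => Finset.sum_le_sum fun j _ => ?_
      rw [← sq_abs, sq]
      exact mul_le_mul (hpol i j) (hcl i j) (abs_nonneg _) (by positivity)
    rw [Finset.sum_const, Finset.sum_const, Finset.card_univ, Fintype.card_fin, nsmul_eq_mul,
      nsmul_eq_mul] at h1
    have h2 : (n : ℝ) * (n * (4 * n * S * (1 / (16 * n ^ 3)))) = S / 4 := by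
      field_simp
      ring
    rw [h2] at h1
    have h3 : S = 0 := by linarith
    intro i j
    have h4 := hpol i j
    rw [h3, mul_zero] at h4
    exact abs_nonpos_iff.1 h4
  · intro i j
    have h4 := hpol i j
    rw [hp, zero_pow hm.ne', zero_mul, mul_zero] at h4
    exact abs_nonpos_iff.1 h4

lemma small (hn : 3 ≤ n) : (1 : ℝ) / (16 * n ^ 3) ≤ 1 / (2 * (n + 1)) := by
  have h : (3 : ℝ) ≤ n := by exact_mod_cast hn
  refine one_div_le_one_div_of_le (by positivity) ?_
  nlinarith [sq_nonneg ((n : ℝ) - 3), mul_nonneg (sq_nonneg (n : ℝ)) (by linarith : (0 : ℝ) ≤ n - 3)]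

/-- **(BD)** -/
theorem bd (hc : RowCONC) (he : RowEN) : RowBD := by
  intro n hn
  have hn0 : (0 : ℝ) < n := by
    have : 0 < n := by omega
    exact_mod_cast this
  refine ⟨1 / (16 * n ^ 3), by positivity, ?_⟩
  intro ρ hρ t ht hsym hSD ha m b hb hs hh hbν
  exact bd_core hn hρ ha (key hc hn hρ (he ρ hρ t ht hsym hSD fun x hx i j =>
    (ha x hx i j).trans (small hn)) hb hs hh) hb hs hh hbν

/-- **(BDE)** -/
theorem bde (hc : RowCONC) (he : RowENE) : RowBDE := by
  intro n hn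
  have hn0 : (0 : ℝ) < n := by
    have : 0 < n := by omega
    exact_mod_cast this
  refine ⟨1 / (16 * n ^ 3), by positivity, ?_⟩
  intro ρ hρ t ht hsym hSE ha m b hb hs hh hbν
  exact bd_core hn hρ ha (key hc hn hρ (he ρ hρ t ht hsym hSE fun x hx i j =>
    (ha x hx i j).trans (small hn)) hb hs hh) hb hs hh hbν

end Vale.Agent.P088.LR.B.H43
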