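import Vale.Agent.P088.H72.B.DefsE

/-!
# P088, stage 2: the boundary step
-/

open MeasureTheory Set
open scoped ContDiff Matrix

noncomputable section

namespace Vale.Agent.P088.LR.B.H43

open Vale.Agent.P088.LR Vale.Agent.P088.LR.B Vale.Agent.P088.H639

variable {n : ℕ} {ρ : V n → ℝ}

lemma core_compact : IsCompact (core n) := by
  have h : core n = Icc (fun _ => (1 / 4 : ℝ)) (fun _ => 3 / 4) := by
    ext x
    simp only [core, mem_ofPred_eq, mem_Icc, Pi.le_def, forall_and]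
  rw [h]
  exact isCompact_Icc

lemma om_core (hρ : Dom ρ) : Om ρ ⊆ core n := by
  intro x hx
  by_contra h
  have h1 : (0 : ℝ) < ρ x := hx
  rw [hρ.off x h] at h1
  linarith

lemma om_meas (hρ : Dom ρ) : MeasurableSet (Om ρ) :=
  (isOpen_lt continuous_const hρ.sm.continuous).measurableSet

lemma om_int {E : Type*} [NormedAddCommGroup E] (hρ : Dom ρ) {f : V n → E}
    (hf : Continuous f) : IntegrableOn f (Om ρ) :=
  (hf.continuousOn.integrableOn_compact core_compact).mono_set (om_core hρ)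

lemma pd_cont {E : Type*} [NormedAddCommGroup E] [NormedSpace ℝ E] {f : V n → E}
    (hf : ContDiff ℝ ∞ f) (i : Fin n) : Continuous (pd i f) := by
  unfold pd
  exact (hf.continuous_fderiv (by simp)).clm_apply continuous_const

lemma pd_conj {U : V n → ℂ} (hU : ContDiff ℝ ∞ U) (j : Fin n) (x : V n) :
    pd j (fun y => (starRingEnd ℂ) (U y)) x = (starRingEnd ℂ) (pd j U x) := by
  have h : HasFDerivAt (fun y => (starRingEnd ℂ) (U y))
      ((Complex.conjCLE : ℂ →L[ℝ] ℂ).comp (fderiv ℝ U x)) x :=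
    (Complex.conjCLE : ℂ →L[ℝ] ℂ).hasFDerivAt.comp x ((hU.differentiable (by simp)) x).hasFDerivAt
  unfold pd
  rw [h.fderiv]
  rfl

/-- `|∇U|²` -/
def G (U : V n → ℂ) (x : V n) : ℝ := ∑ i, ‖pd i U x‖ ^ 2

lemma G_cont {U : V n → ℂ} (hU : ContDiff ℝ ∞ U) : Continuous (G U) := by
  unfold G
  exact continuous_finsetSum _ fun i _ => (pd_cont hU i).norm.pow 2

lemma G_nonneg (U : V n → ℂ) (x : V n) : 0 ≤ G U x :=
  Finset.sum_nonneg fun i _ => by positivity

lemma pd_le_G (U : V n → ℂ) (x : V n) (i : Fin n) : ‖pd i U x‖ ^ 2 ≤ G U x :=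
  Finset.single_le_sum (f := fun i => ‖pd i U x‖ ^ 2) (fun i _ => by positivity)
    (Finset.mem_univ i)

lemma mul_le_G (U : V n → ℂ) (x : V n) (i j : Fin n) :
    ‖pd i U x * (starRingEnd ℂ) (pd j U x)‖ ≤ G U x := by
  rw [norm_mul, RCLike.norm_conj]
  have h1 := pd_le_G U x i
  have h2 := pd_le_G U x j
  nlinarith [sq_nonneg (‖pd i U x‖ - ‖pd j U x‖)]

/-- splitting an integral near and away from the point `p` -/
lemma split (hρ : Dom ρ) {g h : V n → ℝ} (hg : Continuous g) (hg0 : ∀ x, 0 ≤ g x)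
    (hh : Continuous h) {p : V n} {m : ℕ} {ε a A B : ℝ} (ha : 0 ≤ a) (hA : 0 ≤ A)
    (hB : ∀ x ∈ Om ρ, ρ x ^ m ≤ B)
    (hnear : ∀ x ∈ Om ρ, dist x p < ε → h x ≤ a) (hfar : ∀ x ∈ Om ρ, h x ≤ A) :
    ∫ x in Om ρ, ρ x ^ m * (h x * g x) ≤ a * (∫ x in Om ρ, ρ x ^ m * g x) +
      A * B * ∫ x in {x | x ∈ Om ρ ∧ ε ≤ dist x p}, g x := by
  have hpm : Continuous fun x => ρ x ^ m := hρ.sm.continuous.pow m
  have i1 : IntegrableOn (fun x => ρ x ^ m * (h x * g x)) (Om ρ) :=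
    om_int hρ (hpm.mul (hh.mul hg))
  have i2 : IntegrableOn (fun x => ρ x ^ m * g x) (Om ρ) := om_int hρ (hpm.mul hg)
  have hF : MeasurableSet {x : V n | ε ≤ dist x p} :=
    (isClosed_le continuous_const (continuous_id.dist continuous_const)).measurableSet
  have i3 : IntegrableOn ({x : V n | ε ≤ dist x p}.indicator g) (Om ρ) :=
    (om_int hρ hg).indicator hF
  have e1 : ∫ x in {x | x ∈ Om ρ ∧ ε ≤ dist x p}, g x =
      ∫ x in Om ρ, {x : V n | ε ≤ dist x p}.indicator g x := by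
    rw [setIntegral_indicator hF]
    rfl
  rw [e1, ← integral_const_mul, ← integral_const_mul, ← integral_add (i2.const_mul a)
    (i3.const_mul (A * B))]
  refine setIntegral_mono_on i1 ((i2.const_mul a).add (i3.const_mul (A * B))) (om_meas hρ) ?_
  intro x hx
  have hx0 : 0 < ρ x := hx
  have h0 : 0 ≤ ρ x ^ m := by positivity
  have h1 : 0 ≤ ρ x ^ m * g x := mul_nonneg h0 (hg0 x)
  by_cases hd : ε ≤ dist x p
  · have h2 : {x : V n | ε ≤ dist x p}.indicator g x = g x := indicator_of_mem (by exact hd) g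
    rw [h2]
    have h3 : ρ x ^ m * (h x * g x) ≤ B * (A * g x) := by
      have h4 : h x * g x ≤ A * g x := mul_le_mul_of_nonneg_right (hfar x hx) (hg0 x)
      have h5 : ρ x ^ m * (h x * g x) ≤ ρ x ^ m * (A * g x) := mul_le_mul_of_nonneg_left h4 h0
      exact h5.trans (mul_le_mul_of_nonneg_right (hB x hx) (mul_nonneg hA (hg0 x)))
    have h6 : 0 ≤ a * (ρ x ^ m * g x) := mul_nonneg ha h1
    linarith
  · have h2 : {x : V n | ε ≤ dist x p}.indicator g x = 0 :=
      indicator_of_notMem (by exact hd) g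
    rw [h2]
    have h3 := mul_le_mul_of_nonneg_left
      (mul_le_mul_of_nonneg_right (hnear x hx (not_le.1 hd)) (hg0 x)) h0
    linarith

/-- pointwise algebra -/
lemma alg (u : Fin n → ℂ) (β β0 : Fin n → Fin n → ℝ) (θ : Fin n → Fin n → ℂ) {r g : ℝ}
    (hr : 0 ≤ r) (hg : ∀ i j, ‖u i * (starRingEnd ℂ) (u j)‖ ≤ g) :
    ‖2 * (∑ i, ∑ j, ((r * β i j : ℝ) : ℂ) * u i * (starRingEnd ℂ) (u j)) -
      (∑ i, ∑ j, (β0 i j : ℂ) * θ i j) * ((r * g : ℝ) : ℂ)‖ ≤
      2 * (r * ((∑ i, ∑ j, |β i j - β0 i j|) * g)) +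
        ∑ i, ∑ j, |β0 i j| * (r * ‖2 * (u i * (starRingEnd ℂ) (u j)) - θ i j * (g : ℂ)‖) := by
  have e1 : 2 * (∑ i, ∑ j, ((r * β i j : ℝ) : ℂ) * u i * (starRingEnd ℂ) (u j)) -
      (∑ i, ∑ j, (β0 i j : ℂ) * θ i j) * ((r * g : ℝ) : ℂ) =
      ∑ i, ∑ j, ((2 * r * (β i j - β0 i j) : ℝ) * (u i * (starRingEnd ℂ) (u j)) +
        ((β0 i j * r : ℝ) : ℂ) * (2 * (u i * (starRingEnd ℂ) (u j)) - θ i j * (g : ℂ))) := by
    rw [Finset.mul_sum, Finset.sum_mul, ← Finset.sum_sub_distrib]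
    refine Finset.sum_congr rfl fun i _ => ?_
    rw [Finset.mul_sum, Finset.sum_mul, ← Finset.sum_sub_distrib]
    refine Finset.sum_congr rfl fun j _ => ?_
    push_cast
    ring
  have e2 : 2 * (r * ((∑ i, ∑ j, |β i j - β0 i j|) * g)) +
        ∑ i, ∑ j, |β0 i j| * (r * ‖2 * (u i * (starRingEnd ℂ) (u j)) - θ i j * (g : ℂ)‖) =
      ∑ i, ∑ j, (2 * (r * (|β i j - β0 i j| * g)) +
        |β0 i j| * (r * ‖2 * (u i * (starRingEnd ℂ) (u j)) - θ i j * (g : ℂ)‖)) := by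
    simp only [Finset.sum_add_distrib, Finset.sum_mul, Finset.mul_sum]
  rw [e1, e2]
  refine (norm_sum_le _ _).trans (Finset.sum_le_sum fun i _ => ?_)
  refine (norm_sum_le _ _).trans (Finset.sum_le_sum fun j _ => ?_)
  refine (norm_add_le _ _).trans (add_le_add ?_ ?_)
  · rw [norm_mul, Complex.norm_real, Real.norm_eq_abs, abs_mul, abs_mul, abs_two,
      abs_of_nonneg hr]
    have h1 := mul_le_mul_of_nonneg_left (hg i j)
      (by positivity : (0 : ℝ) ≤ 2 * r * |β i j - β0 i j|)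
    linarith
  · rw [norm_mul, Complex.norm_real, Real.norm_eq_abs, abs_mul, abs_of_nonneg hr]
    exact le_of_eq (by ring)

/-- contraction with the null vector -/
lemma contr {β : Fin n → Fin n → ℝ} (hs : ∀ i j, β i j = β j i) {ν τ : V n}
    (hβ : ∀ i, ∑ j, β i j * ν j = 0) :
    ∑ i, ∑ j, (β i j : ℂ) * (((ν i : ℂ) + Complex.I * τ i) * ((ν j : ℂ) - Complex.I * τ j)) =
      ((∑ i, ∑ j, β i j * (τ i * τ j) : ℝ) : ℂ) := by
  have s1 : ∀ a : V n, ∑ i, ∑ j, β i j * (a i * ν j) = 0 := fun a =>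
    Finset.sum_eq_zero fun i _ => by
      have h : ∑ j, β i j * (a i * ν j) = a i * ∑ j, β i j * ν j := by
        rw [Finset.mul_sum]
        exact Finset.sum_congr rfl fun j _ => by ring
      rw [h, hβ i, mul_zero]
  have s2 : ∀ a : V n, ∑ i, ∑ j, β i j * (ν i * a j) = 0 := fun a => by
    rw [Finset.sum_comm, ← s1 a]
    refine Finset.sum_congr rfl fun i _ => Finset.sum_congr rfl fun j _ => ?_
    rw [hs j i]; ring
  have e : ∀ i j, (β i j : ℂ) * (((ν i : ℂ) + Complex.I * τ i) * ((ν j : ℂ) - Complex.I * τ j)) =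
      ((β i j * (τ i * τ j) : ℝ) : ℂ) + (((β i j * (ν i * ν j) : ℝ) : ℂ) +
        Complex.I * (((β i j * (τ i * ν j) : ℝ) : ℂ) - ((β i j * (ν i * τ j) : ℝ) : ℂ))) := by
    intro i j
    push_cast
    linear_combination (-(β i j : ℂ) * (τ i : ℂ) * (τ j : ℂ)) * Complex.I_sq
  simp only [e, Finset.sum_add_distrib, ← Finset.mul_sum, Finset.sum_sub_distrib,
    ← Complex.ofReal_sum]
  rw [s1 ν, s1 τ, s2 τ]
  simp

/-- the estimate at a boundary point -/
lemma key (hc : RowCONC) (hn : 3 ≤ n) (hρ : Dom ρ) {t : MF n}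
    (hen : ∀ U : V n → ℂ, ContDiff ℝ ∞ U → (∀ x ∈ Om ρ, dv (fun _ => 1) U x = 0) →
      ‖bl (Om ρ) (fun x => t x - 1) U (fun x => (starRingEnd ℂ) (U x))‖ ≤
        2 * n * ∫ x in Om ρ, ∑ i, ∑ j, |t x i j - dl i j| ^ 2 * ‖pd j U x‖ ^ 2)
    {m : ℕ} {b : Fin n → Fin n → V n → ℝ} (hb : ∀ i j, ContDiff ℝ ∞ (b i j))
    (hs : ∀ i j x, b i j x = b j i x) (hh : ∀ x i j, t x i j - dl i j = ρ x ^ m * b i j x)
    {p : V n} (hp : ρ p = 0) {ν τ : V n} (h1 : ∑ i, ν i ^ 2 = 1) (h2 : ∑ i, τ i ^ 2 = 1)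
    (h3 : ∑ i, ν i * τ i = 0) (hν : ∃ c > 0, ∀ i, pd i ρ p = c * ν i)
    (hbν : ∀ i, ∑ j, b i j p * ν j = 0) :
    |∑ i, ∑ j, b i j p * (τ i * τ j)| ≤ 4 * n * (ρ p ^ m * ∑ i, ∑ j, b i j p ^ 2) := by
  set H1 : V n → ℝ := fun x => ∑ i, ∑ j, |b i j x - b i j p| with hH1
  set H2 : V n → ℝ := fun x => ρ x ^ m * ∑ i, ∑ j, b i j x ^ 2 with hH2
  have cb : ∀ i j, Continuous (b i j) := fun i j => (hb i j).continuous
  have cm : Continuous fun x => ρ x ^ m := hρ.sm.continuous.pow m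
  have c1 : Continuous H1 := continuous_finsetSum _ fun i _ => continuous_finsetSum _ fun j _ =>
    ((cb i j).sub continuous_const).abs
  have c2 : Continuous H2 := cm.mul (continuous_finsetSum _ fun i _ =>
    continuous_finsetSum _ fun j _ => (cb i j).pow 2)
  obtain ⟨B1, hB1⟩ := core_compact.exists_bound_of_continuousOn c1.continuousOn
  obtain ⟨B2, hB2⟩ := core_compact.exists_bound_of_continuousOn c2.continuousOn
  obtain ⟨B3, hB3⟩ := core_compact.exists_bound_of_continuousOn cm.continuousOn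
  set B : ℝ := max 1 (max B1 (max B2 B3)) with hB
  have hB0 : 0 < B := lt_of_lt_of_le one_pos (le_max_left _ _)
  have b1 : ∀ x ∈ Om ρ, H1 x ≤ B := fun x hx => (le_abs_self _).trans
    ((hB1 x (om_core hρ hx)).trans ((le_max_left _ _).trans (le_max_right _ _)))
  have b2 : ∀ x ∈ Om ρ, H2 x ≤ B := fun x hx => (le_abs_self _).trans
    ((hB2 x (om_core hρ hx)).trans ((le_max_left _ _).trans
      ((le_max_right _ _).trans (le_max_right _ _))))
  have b3 : ∀ x ∈ Om ρ, ρ x ^ m ≤ B := fun x hx => (le_abs_self _).trans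
    ((hB3 x (om_core hρ hx)).trans ((le_max_right _ _).trans
      ((le_max_right _ _).trans (le_max_right _ _))))
  set T : ℝ := ∑ i, ∑ j, |b i j p| with hT
  have hT0 : 0 ≤ T := Finset.sum_nonneg fun i _ => Finset.sum_nonneg fun j _ => abs_nonneg _
  set θ : Fin n → Fin n → ℂ := fun i j =>
    ((ν i : ℂ) + Complex.I * τ i) * ((ν j : ℂ) - Complex.I * τ j) with hθ
  set q : ℝ := ∑ i, ∑ j, b i j p * (τ i * τ j) with hq
  have hθq : ∑ i, ∑ j, (b i j p : ℂ) * θ i j = (q : ℂ) := contr (fun i j => hs i j p) hbν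
  have hH2p : 0 ≤ H2 p := by
    refine mul_nonneg ?_ (Finset.sum_nonneg fun i _ => Finset.sum_nonneg fun j _ => sq_nonneg _)
    rw [hp]; positivity
  set C : ℝ := 4 * n + 4 * n * (B * B) + 2 + 2 * (B * B) + T with hC
  have hC0 : 0 < C := by positivity
  refine le_of_forall_pos_le_add fun η' hη' => ?_
  set η : ℝ := η' / C with hη
  have hη0 : 0 < η := by positivity
  obtain ⟨δ1, hδ1, hd1⟩ := Metric.continuous_iff.1 c1 p η hη0
  obtain ⟨δ2, hδ2, hd2⟩ := Metric.continuous_iff.1 c2 p η hη0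
  set ε : ℝ := min (min δ1 δ2) η with hε
  have hε0 : 0 < ε := lt_min (lt_min hδ1 hδ2) hη0
  have hεη : ε ≤ η := min_le_right _ _
  have n1 : ∀ x ∈ Om ρ, dist x p < ε → H1 x ≤ η := by
    intro x _ hx
    have h4 := hd1 x (hx.trans_le ((min_le_left _ _).trans (min_le_left _ _)))
    have h5 : H1 p = 0 := by simp [hH1]
    rw [h5, Real.dist_eq, sub_zero] at h4
    exact (le_abs_self _).trans h4.le
  have n2 : ∀ x ∈ Om ρ, dist x p < ε → H2 x ≤ H2 p + η := by
    intro x _ hx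
    have h4 := hd2 x (hx.trans_le ((min_le_left _ _).trans (min_le_right _ _)))
    rw [Real.dist_eq] at h4
    have := (abs_lt.1 h4).2
    linarith
  obtain ⟨U, hU, hUh, M, hM, hMe, hfar, hpr⟩ := hc hn ρ hρ p hp ν τ h1 h2 h3 hν m ε hε0
  have hMe' : M = ∫ x in Om ρ, ρ x ^ m * G U x := hMe
  have hfar' : ∫ x in {x | x ∈ Om ρ ∧ ε ≤ dist x p}, G U x ≤ ε * M := hfar
  have cG := G_cont hU
  have cU : ∀ i, Continuous (pd i U) := pd_cont hU
  have cUc : ∀ i, Continuous fun x => (starRingEnd ℂ) (pd i U x) := fun i =>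
    Complex.continuous_conj.comp (cU i)
  -- the form
  set I : ℂ := bl (Om ρ) (fun x => t x - 1) U (fun x => (starRingEnd ℂ) (U x)) with hI
  set f1 : V n → ℂ := fun x => ∑ i, ∑ j, ((ρ x ^ m * b i j x : ℝ) : ℂ) * pd i U x *
    (starRingEnd ℂ) (pd j U x) with hf1
  have cf1 : Continuous f1 := continuous_finsetSum _ fun i _ => continuous_finsetSum _ fun j _ =>
    ((Complex.continuous_ofReal.comp (cm.mul (cb i j))).mul (cU i)).mul (cUc j)
  have eI : I = ∫ x in Om ρ, f1 x := by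
    rw [hI]
    unfold bl
    refine integral_congr_ae (Filter.Eventually.of_forall fun x => ?_)
    simp only [hf1, pd_conj hU]
    refine Finset.sum_congr rfl fun i _ => Finset.sum_congr rfl fun j _ => ?_
    have h4 : (t x - 1) i j = ρ x ^ m * b i j x := by
      rw [← hh x i j]
      rfl
    rw [h4]
  set f2 : V n → ℂ := fun x => (∑ i, ∑ j, (b i j p : ℂ) * θ i j) *
    ((ρ x ^ m * G U x : ℝ) : ℂ) with hf2
  have cf2 : Continuous f2 :=
    continuous_const.mul (Complex.continuous_ofReal.comp (cm.mul cG))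
  have eM : (q : ℂ) * (M : ℂ) = ∫ x in Om ρ, f2 x := by
    rw [hf2, integral_const_mul, hθq, hMe']
    congr 1
    exact integral_ofReal.symm
  set E : Fin n → Fin n → V n → ℝ := fun i j x =>
    ‖2 * (pd i U x * (starRingEnd ℂ) (pd j U x)) - θ i j * ((G U x : ℝ) : ℂ)‖ with hE
  have cE : ∀ i j, Continuous (E i j) := fun i j =>
    ((continuous_const.mul ((cU i).mul (cUc j))).sub
      (continuous_const.mul (Complex.continuous_ofReal.comp cG))).norm
  have hpr' : ∀ i j, ∫ x in Om ρ, ρ x ^ m * E i j x ≤ ε * M := fun i j => hpr i j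
  have hs1 := split hρ cG (G_nonneg U) c1 hη0.le hB0.le b3 n1 b1
  have hs2 := split hρ cG (G_nonneg U) c2 (by linarith : 0 ≤ H2 p + η) hB0.le b3 n2 b2
  rw [← hMe'] at hs1 hs2
  have hBB : 0 ≤ B * B := by positivity
  have hs1' : ∫ x in Om ρ, ρ x ^ m * (H1 x * G U x) ≤ (η + B * B * ε) * M := by
    have := mul_le_mul_of_nonneg_left hfar' hBB
    linarith
  have hs2' : ∫ x in Om ρ, ρ x ^ m * (H2 x * G U x) ≤ (H2 p + η + B * B * ε) * M := by
    have := mul_le_mul_of_nonneg_left hfar' hBB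
    linarith
  -- first estimate
  have k1 : ‖2 * I - (q : ℂ) * (M : ℂ)‖ ≤ 2 * ((η + B * B * ε) * M) + T * (ε * M) := by
    have i1 : IntegrableOn f1 (Om ρ) := om_int hρ cf1
    have i2 : IntegrableOn f2 (Om ρ) := om_int hρ cf2
    rw [eI, eM, ← integral_const_mul, ← integral_sub (i1.const_mul 2) i2]
    refine (norm_integral_le_integral_norm _).trans ?_
    have i3 : IntegrableOn (fun x => ‖2 * f1 x - f2 x‖) (Om ρ) :=
      om_int hρ ((continuous_const.mul cf1).sub cf2).norm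
    have i4 : IntegrableOn (fun x => ρ x ^ m * (H1 x * G U x)) (Om ρ) :=
      om_int hρ (cm.mul (c1.mul cG))
    have i5 : ∀ i j, IntegrableOn (fun x => ρ x ^ m * E i j x) (Om ρ) := fun i j =>
      om_int hρ (cm.mul (cE i j))
    have i6 : IntegrableOn (fun x => ∑ i, ∑ j, |b i j p| * (ρ x ^ m * E i j x)) (Om ρ) :=
      om_int hρ (continuous_finsetSum _ fun i _ => continuous_finsetSum _ fun j _ =>
        continuous_const.mul (cm.mul (cE i j)))
    have h4 : ∫ x in Om ρ, ‖2 * f1 x - f2 x‖ ≤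
        ∫ x in Om ρ, (2 * (ρ x ^ m * (H1 x * G U x)) +
          ∑ i, ∑ j, |b i j p| * (ρ x ^ m * E i j x)) := by
      refine setIntegral_mono_on i3 ((i4.const_mul 2).add i6) (om_meas hρ) fun x hx => ?_
      have hx0 : 0 < ρ x := hx
      exact alg (fun i => pd i U x) (fun i j => b i j x) (fun i j => b i j p) θ
        (by positivity) fun i j => mul_le_G U x i j
    refine h4.trans ?_
    rw [integral_add (i4.const_mul 2) i6, integral_const_mul]
    have h5 : ∫ x in Om ρ, ∑ i, ∑ j, |b i j p| * (ρ x ^ m * E i j x) ≤ T * (ε * M) := by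
      rw [integral_finsetSum _ fun i _ => integrable_finsetSum _ fun j _ =>
        (i5 i j).const_mul _, hT, Finset.sum_mul]
      refine Finset.sum_le_sum fun i _ => ?_
      rw [integral_finsetSum _ fun j _ => (i5 i j).const_mul _, Finset.sum_mul]
      refine Finset.sum_le_sum fun j _ => ?_
      rw [integral_const_mul]
      exact mul_le_mul_of_nonneg_left (hpr' i j) (abs_nonneg _)
    linarith
  -- second estimate
  have k2 : ‖I‖ ≤ 2 * n * ((H2 p + η + B * B * ε) * M) := by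
    refine (hen U hU hUh).trans (mul_le_mul_of_nonneg_left ?_ (by positivity))
    refine le_trans ?_ hs2'
    simp only [hh]
    have i1 : IntegrableOn (fun x => ∑ i, ∑ j, |ρ x ^ m * b i j x| ^ 2 * ‖pd j U x‖ ^ 2)
        (Om ρ) := om_int hρ (continuous_finsetSum _ fun i _ => continuous_finsetSum _ fun j _ =>
          ((cm.mul (cb i j)).abs.pow 2).mul ((cU j).norm.pow 2))
    refine setIntegral_mono_on i1 (om_int hρ (cm.mul (c2.mul cG))) (om_meas hρ) fun x hx => ?_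
    have hx0 : 0 < ρ x := hx
    have h4 : ρ x ^ m * (H2 x * G U x) =
        ∑ i, ∑ j, ρ x ^ m * (ρ x ^ m * b i j x ^ 2 * G U x) := by
      simp only [hH2, Finset.mul_sum, Finset.sum_mul]
    rw [h4]
    refine Finset.sum_le_sum fun i _ => Finset.sum_le_sum fun j _ => ?_
    rw [sq_abs]
    have h5 : (0 : ℝ) ≤ ρ x ^ m * (ρ x ^ m * b i j x ^ 2) := by positivity
    have h6 := mul_le_mul_of_nonneg_left (pd_le_G U x j) h5
    calc (ρ x ^ m * b i j x) ^ 2 * ‖pd j U x‖ ^ 2 =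
        ρ x ^ m * (ρ x ^ m * b i j x ^ 2) * ‖pd j U x‖ ^ 2 := by ring
      _ ≤ ρ x ^ m * (ρ x ^ m * b i j x ^ 2) * G U x := h6
      _ = ρ x ^ m * (ρ x ^ m * b i j x ^ 2 * G U x) := by ring
  -- conclusion
  have k3 : |q| * M ≤ (4 * n * H2 p + C * η) * M := by
    have h4 : |q| * M = ‖(q : ℂ) * (M : ℂ)‖ := by
      rw [norm_mul, Complex.norm_real, Complex.norm_real, Real.norm_eq_abs, Real.norm_eq_abs,
        abs_of_pos hM]
    have h5 : ‖(q : ℂ) * (M : ℂ)‖ ≤ ‖2 * I‖ + ‖2 * I - (q : ℂ) * (M : ℂ)‖ := by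
      have := norm_sub_le (2 * I) (2 * I - (q : ℂ) * (M : ℂ))
      rwa [sub_sub_cancel] at this
    have h6 : ‖2 * I‖ = 2 * ‖I‖ := by simp
    have h7 : (4 * n * H2 p + C * η) * M - ((4 * n * (H2 p + η + B * B * ε)) * M +
        (2 * ((η + B * B * ε) * M) + T * (ε * M))) =
        ((4 * n * (B * B) + 2 * (B * B) + T) * (η - ε)) * M := by
      rw [hC]; ring
    have h8 : 0 ≤ ((4 * n * (B * B) + 2 * (B * B) + T) * (η - ε)) * M := by
      have : 0 ≤ η - ε := by linarith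
      positivity
    rw [h4]
    linarith
  have k4 : |q| ≤ 4 * n * H2 p + C * η := le_of_mul_le_mul_right k3 hM
  have k5 : C * η = η' := by rw [hη]; field_simp
  rw [k5] at k4
  exact k4

end Vale.Agent.P088.LR.B.H43
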